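import Mathlib
import Vale.Agent.Lib.P080.Defs
import Vale.Agent.Lib.P080.OneDim
import Vale.Agent.Lib.P080.Reduce
import Vale.Agent.Lib.P080.Gradient

namespace Vale.Agent.Results.P080.A_SeparableEntire

open Vale.Agent.Lib.P080

/-- Gradient regularity for separable infinity-harmonic functions, in every dimension `d`.
Let `f_1, …, f_d : ℝ → ℝ` be continuous and suppose that `u(x) = f_1(x_1) + … + f_d(x_d)` is
infinity-harmonic on `ℝ^d` (a viscosity solution of `Δ_∞ u = 0`). Then every `f_i` is `C^1`,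
`u` is `C^1`, and there is a constant `C` such that every `f_i'` is Hölder continuous with
exponent `1/3` and constant `C`, and the gradient of `u` satisfies
`|∇u(x) - ∇u(y)| ≤ C |x - y|^(1/3)` for all `x, y ∈ ℝ^d`. -/
theorem result (d : ℕ) (f : Fin d → ℝ → ℝ) (hf : ∀ i, Continuous (f i))
    (hu : InfHarmonic (fun x : EuclideanSpace ℝ (Fin d) => ∑ i, f i (x i))) :
    (∀ i, ContDiff ℝ 1 (f i)) ∧
    ContDiff ℝ 1 (fun x : EuclideanSpace ℝ (Fin d) => ∑ i, f i (x i)) ∧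
    ∃ C : ℝ,
      (∀ i, ∀ s t : ℝ, |deriv (f i) s - deriv (f i) t| ≤ C * |s - t| ^ ((1 : ℝ) / 3)) ∧
      ∀ x y : EuclideanSpace ℝ (Fin d),
        ‖fderiv ℝ (fun x : EuclideanSpace ℝ (Fin d) => ∑ i, f i (x i)) x
          - fderiv ℝ (fun x : EuclideanSpace ℝ (Fin d) => ∑ i, f i (x i)) y‖
          ≤ C * ‖x - y‖ ^ ((1 : ℝ) / 3) := by
  obtain ⟨K, hK0, hK⟩ := hyp_of_infHarmonic f hf hu
  have hreg := fun i => (hK i).regular hK0
  set C₀ : ℝ := 54 * (2 * (K + 1)) ^ ((1 : ℝ) / 3) with hC₀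
  have hC₀pos : 0 ≤ C₀ := by rw [hC₀]; positivity
  have hd : (0 : ℝ) ≤ d := Nat.cast_nonneg d
  refine ⟨fun i => (hreg i).1, ?_, (d + 1) * C₀, ?_, ?_⟩
  · apply ContDiff.sum
    intro i _
    exact (hreg i).1.comp (by fun_prop)
  · intro i s t
    have h1 := (hreg i).2 s t
    have h2 : 0 ≤ |s - t| ^ ((1 : ℝ) / 3) := Real.rpow_nonneg (abs_nonneg _) _
    have h3 : C₀ * |s - t| ^ ((1 : ℝ) / 3) ≤ (d + 1) * C₀ * |s - t| ^ ((1 : ℝ) / 3) := by
      apply mul_le_mul_of_nonneg_right _ h2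
      nlinarith
    exact h1.trans h3
  · intro x y
    have h1 := gradient_holder f (fun i => (hreg i).1) C₀ hC₀pos (fun i => (hreg i).2) x y
    have h2 : 0 ≤ ‖x - y‖ ^ ((1 : ℝ) / 3) := Real.rpow_nonneg (norm_nonneg _) _
    have h3 : d * C₀ * ‖x - y‖ ^ ((1 : ℝ) / 3) ≤ (d + 1) * C₀ * ‖x - y‖ ^ ((1 : ℝ) / 3) := by
      apply mul_le_mul_of_nonneg_right _ h2
      nlinarith
    exact h1.trans h3

end Vale.Agent.Results.P080.A_SeparableEntire
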