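import Mathlib
import Vale.Agent.Lib.P080.Defs
import Vale.Agent.Lib.P080.DefsOn
import Vale.Agent.Lib.P080.OneDimOn
import Vale.Agent.Lib.P080.ReduceOn

namespace Vale.Agent.Results.P080.A_SeparableLocal

open Vale.Agent.Lib.P080

/-- Local gradient regularity for separable infinity-harmonic functions, in every dimension `d`.
Let `J_1, …, J_d` be nonempty open intervals (bounded or not), `B = J_1 × … × J_d` the open box,
and let `u` be infinity-harmonic (a viscosity solution of `Δ_∞ u = 0`) on a set `Ω ⊇ B`. If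
`u(x) = f_1(x_1) + … + f_d(x_d)` on `B` with `f_i` continuous on `J_i`, then every `f_i` is `C^1`
on `J_i`, `u` is `C^1` on `B`, and there is a constant `C` such that
`|f_i'(s) - f_i'(t)| ≤ C |s - t|^(1/3)` for `s, t ∈ J_i` and
`|∇u(x) - ∇u(y)| ≤ C |x - y|^(1/3)` for all `x, y ∈ B`. -/
theorem result (d : ℕ) (J : Fin d → Set ℝ) (hJo : ∀ i, IsOpen (J i))
    (hJc : ∀ i, (J i).OrdConnected) (hJne : ∀ i, (J i).Nonempty)
    (f : Fin d → ℝ → ℝ) (hf : ∀ i, ContinuousOn (f i) (J i))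
    (Ω : Set (EuclideanSpace ℝ (Fin d)))
    (hΩ : {x : EuclideanSpace ℝ (Fin d) | ∀ i, x i ∈ J i} ⊆ Ω)
    (u : EuclideanSpace ℝ (Fin d) → ℝ) (hu : InfHarmonicOn Ω u)
    (huf : ∀ x : EuclideanSpace ℝ (Fin d), (∀ i, x i ∈ J i) → u x = ∑ i, f i (x i)) :
    (∀ i, ContDiffOn ℝ 1 (f i) (J i)) ∧
    ContDiffOn ℝ 1 u {x : EuclideanSpace ℝ (Fin d) | ∀ i, x i ∈ J i} ∧
    ∃ C : ℝ,
      (∀ i, ∀ s ∈ J i, ∀ t ∈ J i,
        |deriv (f i) s - deriv (f i) t| ≤ C * |s - t| ^ ((1 : ℝ) / 3)) ∧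
      ∀ x y : EuclideanSpace ℝ (Fin d), (∀ i, x i ∈ J i) → (∀ i, y i ∈ J i) →
        ‖fderiv ℝ u x - fderiv ℝ u y‖ ≤ C * ‖x - y‖ ^ ((1 : ℝ) / 3) := by
  obtain ⟨K, hK0, hK⟩ := hyp_of_infHarmonicOn J hJo hJne f hf Ω hΩ u hu huf
  have hreg := fun i => (hK i).regular (hJo i) (hJc i) hK0
  set C₀ : ℝ := 54 * (2 * (K + 1)) ^ ((1 : ℝ) / 3) with hC₀
  have hC₀pos : 0 ≤ C₀ := by rw [hC₀]; positivity
  have hd : (0 : ℝ) ≤ d := Nat.cast_nonneg d
  refine ⟨fun i => (hreg i).1, ?_, (d + 1) * C₀, ?_, ?_⟩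
  · have h1 : ContDiffOn ℝ 1 (fun x : EuclideanSpace ℝ (Fin d) => ∑ i, f i (x i))
        {x : EuclideanSpace ℝ (Fin d) | ∀ i, x i ∈ J i} := by
      apply ContDiffOn.sum
      intro i _
      exact (hreg i).1.comp
        (by fun_prop : ContDiff ℝ 1 (fun x : EuclideanSpace ℝ (Fin d) => x i)).contDiffOn
        (fun x hx => hx i)
    exact h1.congr (fun x hx => huf x hx)
  · intro i s hs t ht
    have h1 := (hreg i).2.2 s hs t ht
    have h2 : 0 ≤ |s - t| ^ ((1 : ℝ) / 3) := Real.rpow_nonneg (abs_nonneg _) _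
    have h3 : C₀ * |s - t| ^ ((1 : ℝ) / 3) ≤ (d + 1) * C₀ * |s - t| ^ ((1 : ℝ) / 3) := by
      apply mul_le_mul_of_nonneg_right _ h2
      nlinarith
    exact h1.trans h3
  · intro x y hx hy
    have h1 := gradient_holder_on J hJo f (fun i => (hreg i).2.1) u huf C₀ hC₀pos
      (fun i => (hreg i).2.2) x y hx hy
    have h2 : 0 ≤ ‖x - y‖ ^ ((1 : ℝ) / 3) := Real.rpow_nonneg (norm_nonneg _) _
    have h3 : d * C₀ * ‖x - y‖ ^ ((1 : ℝ) / 3) ≤ (d + 1) * C₀ * ‖x - y‖ ^ ((1 : ℝ) / 3) := by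
      apply mul_le_mul_of_nonneg_right _ h2
      nlinarith
    exact h1.trans h3

end Vale.Agent.Results.P080.A_SeparableLocal
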