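import Mathlib
import Vale.Agent.Lib.P080.Defs
import Vale.Agent.Lib.P080.DefsOn
import Vale.Agent.Lib.P080.Classify

namespace Vale.Agent.Results.P080.B_SeparableClassification

open Vale.Agent.Lib.P080

/-- Classification of separable infinity-harmonic functions and the scale-invariant `C^{1,1/3}`
estimate for them, in every dimension `d`.
Let `J_1, …, J_d` be nonempty open intervals, `B = J_1 × … × J_d` the open box, and let `u` be
infinity-harmonic (a viscosity solution of `Δ_∞ u = 0`) on a set `Ω ⊇ B` with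
`u(x) = f_1(x_1) + … + f_d(x_d)` on `B`, every `f_i` continuous on `J_i`. Then:

1. there are real numbers `c_i, b_i` with `c_1 + … + c_d = 0` such that every `f_i` is
   differentiable on `J_i` with `f_i'(t)^3 = c_i t + b_i` for all `t ∈ J_i`;
2. if `|u(x) - u(y)| ≤ M` for all `x, y ∈ B` (the oscillation of `u` on `B` is at most `M`) and
   every `J_i` contains two points at distance at least `L > 0`, then for all `x, y ∈ B`
   `|∇u(x) - ∇u(y)|^3 L^4 ≤ 1024 d^3 M^3 |x - y|`, that is,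
   `|∇u(x) - ∇u(y)| ≤ 1024^(1/3) d M L^(-4/3) |x - y|^(1/3)`. -/
theorem result (d : ℕ) (J : Fin d → Set ℝ) (hJo : ∀ i, IsOpen (J i))
    (hJc : ∀ i, (J i).OrdConnected) (hJne : ∀ i, (J i).Nonempty)
    (f : Fin d → ℝ → ℝ) (hf : ∀ i, ContinuousOn (f i) (J i))
    (Ω : Set (EuclideanSpace ℝ (Fin d)))
    (hΩ : {x : EuclideanSpace ℝ (Fin d) | ∀ i, x i ∈ J i} ⊆ Ω)
    (u : EuclideanSpace ℝ (Fin d) → ℝ) (hu : InfHarmonicOn Ω u)
    (huf : ∀ x : EuclideanSpace ℝ (Fin d), (∀ i, x i ∈ J i) → u x = ∑ i, f i (x i)) :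
    (∃ c b : Fin d → ℝ, ∑ i, c i = 0 ∧ ∀ i, ∀ t ∈ J i,
      DifferentiableAt ℝ (f i) t ∧ deriv (f i) t ^ 3 = c i * t + b i) ∧
    (∀ M L : ℝ, 0 < L →
      (∀ x y : EuclideanSpace ℝ (Fin d), (∀ i, x i ∈ J i) → (∀ i, y i ∈ J i) →
        |u x - u y| ≤ M) →
      (∀ i, ∃ s ∈ J i, ∃ t ∈ J i, L ≤ t - s) →
      ∀ x y : EuclideanSpace ℝ (Fin d), (∀ i, x i ∈ J i) → (∀ i, y i ∈ J i) →
        ‖fderiv ℝ u x - fderiv ℝ u y‖ ^ 3 * L ^ 4 ≤ 1024 * (d : ℝ) ^ 3 * M ^ 3 * ‖x - y‖) :=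
  ⟨cube_affine J hJo hJc hJne f hf Ω hΩ u hu huf,
    fun M L hL hM hlen =>
      (sep_estimate J hJo hJc hJne f hf Ω hΩ u hu huf M L hL hM hlen).2⟩

end Vale.Agent.Results.P080.B_SeparableClassification
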