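import Mathlib
import Vale.Agent.Lib.P080.Defs
import Vale.Agent.Lib.P080.DefsOn
import Vale.Agent.Lib.P080.Classify
import Vale.Agent.Lib.P080.Converse

namespace Vale.Agent.Results.P080.C_SeparableCharacterization

open Vale.Agent.Lib.P080

/-- Complete characterization of separable infinity-harmonic functions on a box, in every
dimension `d`, with the scale-invariant `C^{1,1/3}` estimate.
Let `J_1, …, J_d` be nonempty open intervals, `B = J_1 × … × J_d` the open box, `f_i` continuous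
on `J_i` and `u(x) = f_1(x_1) + … + f_d(x_d)`.

1. `u` is infinity-harmonic on `B` (a viscosity solution of `Δ_∞ u = 0`) if and only if there
   are real numbers `c_i, b_i` with `c_1 + … + c_d = 0` such that every `f_i` is differentiable
   on `J_i` with `f_i'(t)^3 = c_i t + b_i` for all `t ∈ J_i`.
2. If `u` is infinity-harmonic on `B`, `|u(x) - u(y)| ≤ M` for all `x, y ∈ B`, and every `J_i`
   contains two points at distance at least `L > 0`, then for all `x, y ∈ B`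
   `|∇u(x) - ∇u(y)|^3 L^4 ≤ 1024 d^3 M^3 |x - y|`. -/
theorem result (d : ℕ) (J : Fin d → Set ℝ) (hJo : ∀ i, IsOpen (J i))
    (hJc : ∀ i, (J i).OrdConnected) (hJne : ∀ i, (J i).Nonempty)
    (f : Fin d → ℝ → ℝ) (hf : ∀ i, ContinuousOn (f i) (J i)) :
    (InfHarmonicOn {x : EuclideanSpace ℝ (Fin d) | ∀ i, x i ∈ J i} (fun x => ∑ i, f i (x i)) ↔
      ∃ c b : Fin d → ℝ, ∑ i, c i = 0 ∧ ∀ i, ∀ t ∈ J i,
        DifferentiableAt ℝ (f i) t ∧ deriv (f i) t ^ 3 = c i * t + b i) ∧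
    (InfHarmonicOn {x : EuclideanSpace ℝ (Fin d) | ∀ i, x i ∈ J i} (fun x => ∑ i, f i (x i)) →
      ∀ M L : ℝ, 0 < L →
      (∀ x y : EuclideanSpace ℝ (Fin d), (∀ i, x i ∈ J i) → (∀ i, y i ∈ J i) →
        |∑ i, f i (x i) - ∑ i, f i (y i)| ≤ M) →
      (∀ i, ∃ s ∈ J i, ∃ t ∈ J i, L ≤ t - s) →
      ∀ x y : EuclideanSpace ℝ (Fin d), (∀ i, x i ∈ J i) → (∀ i, y i ∈ J i) →
        ‖fderiv ℝ (fun x : EuclideanSpace ℝ (Fin d) => ∑ i, f i (x i)) x
          - fderiv ℝ (fun x : EuclideanSpace ℝ (Fin d) => ∑ i, f i (x i)) y‖ ^ 3 * L ^ 4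
          ≤ 1024 * (d : ℝ) ^ 3 * M ^ 3 * ‖x - y‖) := by
  refine ⟨⟨fun hu => ?_, ?_⟩, fun hu M L hL hM hlen => ?_⟩
  · exact cube_affine J hJo hJc hJne f hf _ (fun x hx => hx) _ hu (fun x _ => rfl)
  · rintro ⟨c, b, hc, hcb⟩
    exact infHarmonicOn_of_cube_affine J hJo f c b hc hcb _ (fun x _ => rfl)
  · exact (sep_estimate J hJo hJc hJne f hf _ (fun x hx => hx) _ hu (fun x _ => rfl)
      M L hL hM hlen).2

end Vale.Agent.Results.P080.C_SeparableCharacterization
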